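import Mathlib

/-!
# A compact Riemann surface with a meromorphic function with one simple pole is the sphere
-/

open scoped Manifold ContDiff Topology
open Set Filter

namespace Vale.Agent.P267.H332

variable {R : Type*} [TopologicalSpace R] [ChartedSpace ℂ R] [IsManifold 𝓘(ℂ) ω R]

/-! ### Local analysis in charts -/

theorem isManifold_one : IsManifold 𝓘(ℂ) 1 R := IsManifold.of_le (n := ω) le_top

theorem loc_differentiableAt {h : R → ℂ} {q : R} {z : ℂ} (hz : z ∈ (chartAt ℂ q).target)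
    (hd : MDifferentiableAt 𝓘(ℂ) 𝓘(ℂ) h ((chartAt ℂ q).symm z)) :
    DifferentiableAt ℂ (h ∘ (chartAt ℂ q).symm) z := by
  have := isManifold_one (R := R)
  rw [← mdifferentiableAt_iff_differentiableAt]
  exact hd.comp z (mdifferentiableAt_atlas_symm (chart_mem_atlas ℂ q) hz)

omit [IsManifold 𝓘(ℂ) ω R] in
theorem loc_eventually {P : R → Prop} {q : R} {z : ℂ} (hz : z ∈ (chartAt ℂ q).target)
    (h : ∀ᶠ x in 𝓝 ((chartAt ℂ q).symm z), P x) : ∀ᶠ w in 𝓝 z, P ((chartAt ℂ q).symm w) :=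
  ((chartAt ℂ q).continuousAt_symm hz).eventually h

omit [IsManifold 𝓘(ℂ) ω R] in
theorem target_eventually {q : R} {z : ℂ} (hz : z ∈ (chartAt ℂ q).target) :
    ∀ᶠ w in 𝓝 z, w ∈ (chartAt ℂ q).target :=
  (chartAt ℂ q).open_target.mem_nhds hz

theorem loc_analyticAt {h : R → ℂ} {q : R} {z : ℂ} (hz : z ∈ (chartAt ℂ q).target)
    (hd : ∀ᶠ x in 𝓝 ((chartAt ℂ q).symm z), MDifferentiableAt 𝓘(ℂ) 𝓘(ℂ) h x) :
    AnalyticAt ℂ (h ∘ (chartAt ℂ q).symm) z := by
  rw [Complex.analyticAt_iff_eventually_differentiableAt]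
  filter_upwards [loc_eventually hz hd, target_eventually hz] with w h1 h2
  exact loc_differentiableAt h2 h1

/-- The mfderiv is nonzero iff the derivative in a chart is nonzero. -/
theorem mfderiv_ne_zero_of_loc {h : R → ℂ} {q : R} {z : ℂ} (hz : z ∈ (chartAt ℂ q).target)
    (hd : MDifferentiableAt 𝓘(ℂ) 𝓘(ℂ) h ((chartAt ℂ q).symm z))
    (h0 : deriv (h ∘ (chartAt ℂ q).symm) z ≠ 0) :
    mfderiv 𝓘(ℂ) 𝓘(ℂ) h ((chartAt ℂ q).symm z) ≠ 0 := by
  have := isManifold_one (R := R)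
  intro h1
  apply h0
  have h2 := mfderiv_comp z hd (mdifferentiableAt_atlas_symm (chart_mem_atlas ℂ q) hz)
  rw [h1, ContinuousLinearMap.zero_comp, mfderiv_eq_fderiv] at h2
  change fderiv ℂ (h ∘ (chartAt ℂ q).symm) z 1 = 0
  rw [h2]
  rfl

theorem loc_ne_zero_of_mfderiv {h : R → ℂ} {q : R} {x : R} (hx : x ∈ (chartAt ℂ q).source)
    (hd : MDifferentiableAt 𝓘(ℂ) 𝓘(ℂ) h x)
    (h0 : mfderiv 𝓘(ℂ) 𝓘(ℂ) h x ≠ 0) :
    deriv (h ∘ (chartAt ℂ q).symm) (chartAt ℂ q x) ≠ 0 := by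
  have := isManifold_one (R := R)
  intro h1
  apply h0
  have hz : chartAt ℂ q x ∈ (chartAt ℂ q).target := (chartAt ℂ q).map_source hx
  have hd' : MDifferentiableAt 𝓘(ℂ) 𝓘(ℂ) h ((chartAt ℂ q).symm (chartAt ℂ q x)) := by
    rwa [(chartAt ℂ q).left_inv hx]
  have h2 := loc_differentiableAt hz hd'
  have h3 : h =ᶠ[𝓝 x] (h ∘ (chartAt ℂ q).symm) ∘ (chartAt ℂ q) := by
    filter_upwards [(chartAt ℂ q).open_source.mem_nhds hx] with y hy
    simp only [Function.comp_apply, (chartAt ℂ q).left_inv hy]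
  rw [h3.mfderiv_eq, mfderiv_comp x (mdifferentiableAt_iff_differentiableAt.mpr h2)
    (mdifferentiableAt_atlas (chart_mem_atlas ℂ q) hx), mfderiv_eq_fderiv]
  have h4 : fderiv ℂ (h ∘ (chartAt ℂ q).symm) (chartAt ℂ q x) = 0 := by
    ext
    simp [h1]
  rw [h4]
  exact ContinuousLinearMap.zero_comp _

omit [IsManifold 𝓘(ℂ) ω R] in
/-- Transfer of punctured neighbourhoods to a chart. -/
theorem tendsto_chart_punctured {q x : R} (hx : x ∈ (chartAt ℂ q).source) :
    Tendsto (chartAt ℂ q) (𝓝[≠] x) (𝓝[≠] (chartAt ℂ q x)) := by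
  refine tendsto_nhdsWithin_iff.mpr ⟨((chartAt ℂ q).continuousAt hx).mono_left nhdsWithin_le_nhds,
    ?_⟩
  have h1 : ∀ᶠ y in 𝓝[≠] x, y ∈ (chartAt ℂ q).source :=
    nhdsWithin_le_nhds ((chartAt ℂ q).open_source.mem_nhds hx)
  filter_upwards [h1, self_mem_nhdsWithin] with y hy hyx h
  exact hyx ((chartAt ℂ q).injOn hy hx h)

omit [IsManifold 𝓘(ℂ) ω R] in
theorem tendsto_symm_punctured {q : R} {z : ℂ} (hz : z ∈ (chartAt ℂ q).target) :
    Tendsto (chartAt ℂ q).symm (𝓝[≠] z) (𝓝[≠] ((chartAt ℂ q).symm z)) := by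
  refine tendsto_nhdsWithin_iff.mpr ⟨((chartAt ℂ q).continuousAt_symm hz).mono_left
    nhdsWithin_le_nhds, ?_⟩
  have h1 : ∀ᶠ y in 𝓝[≠] z, y ∈ (chartAt ℂ q).target :=
    nhdsWithin_le_nhds ((chartAt ℂ q).open_target.mem_nhds hz)
  filter_upwards [h1, self_mem_nhdsWithin] with y hy hyx h
  exact hyx ((chartAt ℂ q).symm.injOn hy hz h)

omit [IsManifold 𝓘(ℂ) ω R] in
theorem neBot_punctured (x : R) : (𝓝[≠] x).NeBot := by
  have h := tendsto_symm_punctured (mem_chart_target ℂ x)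
  rw [(chartAt ℂ x).left_inv (mem_chart_source ℂ x)] at h
  exact h.neBot

/-- A holomorphic function with nonzero derivative is injective nearby. -/
theorem eventually_injOn_of_deriv_ne_zero {f : ℂ → ℂ} {z : ℂ} (hf : AnalyticAt ℂ f z)
    (h : deriv f z ≠ 0) : ∃ U ∈ 𝓝 z, InjOn f U := by
  have h1 : HasStrictDerivAt f (deriv f z) z := hf.hasStrictDerivAt
  refine ⟨{x | h1.localInverse f (deriv f z) z h (f x) = x}, h1.eventually_left_inverse h, ?_⟩
  intro x hx y hy hxy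
  rw [← (hx : _ = x), ← (hy : _ = y), hxy]

theorem locInj_of_mfderiv_ne_zero {h : R → ℂ} {x : R}
    (hd : ∀ᶠ y in 𝓝 x, MDifferentiableAt 𝓘(ℂ) 𝓘(ℂ) h y)
    (h0 : mfderiv 𝓘(ℂ) 𝓘(ℂ) h x ≠ 0) : ∃ U ∈ 𝓝 x, InjOn h U := by
  have hx := mem_chart_source ℂ x
  have hz := mem_chart_target ℂ x
  have h1 := loc_ne_zero_of_mfderiv hx hd.self_of_nhds h0
  have hd' : ∀ᶠ y in 𝓝 ((chartAt ℂ x).symm (chartAt ℂ x x)),
      MDifferentiableAt 𝓘(ℂ) 𝓘(ℂ) h y := by rwa [(chartAt ℂ x).left_inv hx]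
  have h2 := loc_analyticAt hz hd'
  obtain ⟨U, hU, hinj⟩ := eventually_injOn_of_deriv_ne_zero h2 h1
  refine ⟨(chartAt ℂ x).source ∩ (chartAt ℂ x) ⁻¹' U,
    inter_mem ((chartAt ℂ x).open_source.mem_nhds hx) ((chartAt ℂ x).continuousAt hx hU), ?_⟩
  intro a ha b hb hab
  refine (chartAt ℂ x).injOn ha.1 hb.1 (hinj ha.2 hb.2 ?_)
  simp only [Function.comp_apply, (chartAt ℂ x).left_inv ha.1, (chartAt ℂ x).left_inv hb.1, hab]

/-- The points with nonzero derivative are isolated from the others. -/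
theorem eventually_mfderiv_ne_zero {h : R → ℂ} {x : R}
    (hd : ∀ᶠ y in 𝓝 x, MDifferentiableAt 𝓘(ℂ) 𝓘(ℂ) h y)
    (hn : ¬ ∀ᶠ y in 𝓝 x, h y = h x) : ∀ᶠ y in 𝓝[≠] x, mfderiv 𝓘(ℂ) 𝓘(ℂ) h y ≠ 0 := by
  have hx := mem_chart_source ℂ x
  have hz := mem_chart_target ℂ x
  have hd' : ∀ᶠ y in 𝓝 ((chartAt ℂ x).symm (chartAt ℂ x x)),
      MDifferentiableAt 𝓘(ℂ) 𝓘(ℂ) h y := by rwa [(chartAt ℂ x).left_inv hx]
  have h2 := loc_analyticAt hz hd'
  rcases h2.deriv.eventually_eq_zero_or_eventually_ne_zero with h3 | h3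
  · exfalso
    apply hn
    have h4 := h3.and h2.eventually_analyticAt
    obtain ⟨r, hr, hb⟩ := Metric.eventually_nhds_iff_ball.mp h4
    have hc : ∀ z ∈ Metric.ball (chartAt ℂ x x) r, (h ∘ (chartAt ℂ x).symm) z = h x := by
      intro z hz'
      have := (convex_ball (chartAt ℂ x x) r).is_const_of_fderivWithin_eq_zero (𝕜 := ℂ)
        (f := h ∘ (chartAt ℂ x).symm)
        (fun w hw => (hb w hw).2.differentiableAt.differentiableWithinAt) ?_ hz'
        (Metric.mem_ball_self hr)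
      · rw [this, Function.comp_apply, (chartAt ℂ x).left_inv hx]
      · intro w hw
        rw [fderivWithin_of_isOpen Metric.isOpen_ball hw]
        ext
        simpa using (hb w hw).1
    filter_upwards [(chartAt ℂ x).open_source.mem_nhds hx,
      (chartAt ℂ x).continuousAt hx (Metric.ball_mem_nhds _ hr)] with y hy1 hy2
    have := hc _ hy2
    rwa [Function.comp_apply, (chartAt ℂ x).left_inv hy1] at this
  · have h5 := (tendsto_chart_punctured hx).eventually h3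
    have h6 : ∀ᶠ y in 𝓝[≠] x, y ∈ (chartAt ℂ x).source :=
      nhdsWithin_le_nhds ((chartAt ℂ x).open_source.mem_nhds hx)
    filter_upwards [h5, h6, nhdsWithin_le_nhds hd] with y h7 h8 h9
    have := mfderiv_ne_zero_of_loc ((chartAt ℂ x).map_source h8)
      (by rwa [(chartAt ℂ x).left_inv h8]) h7
    rwa [(chartAt ℂ x).left_inv h8] at this

/-- The open mapping theorem. -/
theorem nhds_le_map {h : R → ℂ} {x : R}
    (hd : ∀ᶠ y in 𝓝 x, MDifferentiableAt 𝓘(ℂ) 𝓘(ℂ) h y)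
    (hn : ¬ ∀ᶠ y in 𝓝 x, h y = h x) : 𝓝 (h x) ≤ map h (𝓝 x) := by
  have hx := mem_chart_source ℂ x
  have hz := mem_chart_target ℂ x
  have hd' : ∀ᶠ y in 𝓝 ((chartAt ℂ x).symm (chartAt ℂ x x)),
      MDifferentiableAt 𝓘(ℂ) 𝓘(ℂ) h y := by rwa [(chartAt ℂ x).left_inv hx]
  have h2 := loc_analyticAt hz hd'
  have h1 : (h ∘ (chartAt ℂ x).symm) (chartAt ℂ x x) = h x := by
    rw [Function.comp_apply, (chartAt ℂ x).left_inv hx]
  rcases h2.eventually_constant_or_nhds_le_map_nhds with h3 | h3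
  · exfalso
    apply hn
    rw [h1] at h3
    filter_upwards [(chartAt ℂ x).continuousAt hx h3, (chartAt ℂ x).open_source.mem_nhds hx]
      with y hy1 hy2
    have : (h ∘ (chartAt ℂ x).symm) (chartAt ℂ x y) = h x := hy1
    rwa [Function.comp_apply, (chartAt ℂ x).left_inv hy2] at this
  · rw [h1] at h3
    refine h3.trans ?_
    rw [← Filter.map_map]
    refine Filter.map_mono ?_
    have := (chartAt ℂ x).continuousAt_symm hz
    rw [ContinuousAt, (chartAt ℂ x).left_inv hx] at this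
    exact this

/-! ### Functions with one simple pole -/

/-- `h` is holomorphic outside `p` and has a simple pole at `p`. -/
structure SimplePole (p : R) (h : R → ℂ) : Prop where
  diff : ∀ q ≠ p, MDifferentiableAt 𝓘(ℂ) 𝓘(ℂ) h q
  pole : ∃ k : ℂ → ℂ, AnalyticAt ℂ k (chartAt ℂ p p) ∧ k (chartAt ℂ p p) = 0 ∧
    deriv k (chartAt ℂ p p) ≠ 0 ∧
    ∀ᶠ z in 𝓝[≠] (chartAt ℂ p p), h ((chartAt ℂ p).symm z) = (k z)⁻¹

namespace SimplePole

variable {p : R} {h : R → ℂ}

section T1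

variable [T1Space R]

omit [IsManifold 𝓘(ℂ) ω R] in
theorem diff_ev (H : SimplePole p h) {q : R} (hq : q ≠ p) :
    ∀ᶠ y in 𝓝 q, MDifferentiableAt 𝓘(ℂ) 𝓘(ℂ) h y := by
  filter_upwards [isOpen_ne.mem_nhds hq] with y hy
  exact H.diff y hy

omit [IsManifold 𝓘(ℂ) ω R] in
theorem near (H : SimplePole p h) : ∃ k : ℂ → ℂ, AnalyticAt ℂ k (chartAt ℂ p p) ∧
    k (chartAt ℂ p p) = 0 ∧ deriv k (chartAt ℂ p p) ≠ 0 ∧
    (∀ᶠ y in 𝓝[≠] p, k (chartAt ℂ p y) ≠ 0 ∧ h y = (k (chartAt ℂ p y))⁻¹) := by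
  obtain ⟨k, hk, hk0, hk1, hk2⟩ := H.pole
  refine ⟨k, hk, hk0, hk1, ?_⟩
  have hp := mem_chart_source ℂ p
  have h1 : ∀ᶠ z in 𝓝[≠] (chartAt ℂ p p), k z ≠ 0 := by
    have := hk.differentiableAt.hasDerivAt.eventually_ne (c := 0) hk1
    exact this
  have h2 := (tendsto_chart_punctured hp).eventually (h1.and hk2)
  have h3 : ∀ᶠ y in 𝓝[≠] p, y ∈ (chartAt ℂ p).source :=
    nhdsWithin_le_nhds ((chartAt ℂ p).open_source.mem_nhds hp)
  filter_upwards [h2, h3] with y hy hy'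
  exact ⟨hy.1, by rw [← hy.2, (chartAt ℂ p).left_inv hy']⟩

omit [IsManifold 𝓘(ℂ) ω R] in
theorem tendsto_norm (H : SimplePole p h) : Tendsto (fun q => ‖h q‖) (𝓝[≠] p) atTop := by
  obtain ⟨k, hk, hk0, -, hk2⟩ := H.near
  have hp := mem_chart_source ℂ p
  have h1 : Tendsto (fun y => k (chartAt ℂ p y)) (𝓝[≠] p) (𝓝[≠] 0) := by
    refine tendsto_nhdsWithin_iff.mpr ⟨?_, hk2.mono fun y hy => hy.1⟩
    have h2 : ContinuousAt (fun y => k (chartAt ℂ p y)) p :=
      ContinuousAt.comp (f := chartAt ℂ p) hk.continuousAt ((chartAt ℂ p).continuousAt hp)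
    rw [ContinuousAt, hk0] at h2
    exact h2.mono_left nhdsWithin_le_nhds
  have h3 := (tendsto_norm_inv_nhdsNE_zero_atTop (α := ℂ)).comp h1
  refine h3.congr' ?_
  filter_upwards [hk2] with y hy
  rw [Function.comp_apply, hy.2]

omit [IsManifold 𝓘(ℂ) ω R] in
theorem injOn_near (H : SimplePole p h) : ∃ U ∈ 𝓝 p, InjOn h (U \ {p}) := by
  obtain ⟨k, hk, hk0, hk1, hk2⟩ := H.near
  have hp := mem_chart_source ℂ p
  obtain ⟨V, hV, hinj⟩ := eventually_injOn_of_deriv_ne_zero hk hk1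
  obtain ⟨W, hW, hW'⟩ := eventually_nhdsWithin_iff.mp hk2 |>.exists_mem
  refine ⟨W ∩ ((chartAt ℂ p).source ∩ (chartAt ℂ p) ⁻¹' V), inter_mem hW
    (inter_mem ((chartAt ℂ p).open_source.mem_nhds hp) ((chartAt ℂ p).continuousAt hp hV)), ?_⟩
  rintro a ⟨⟨ha1, ha2, ha3⟩, ha4⟩ b ⟨⟨hb1, hb2, hb3⟩, hb4⟩ hab
  refine (chartAt ℂ p).injOn ha2 hb2 (hinj ha3 hb3 ?_)
  rw [(hW' a ha1 ha4).2, (hW' b hb1 hb4).2] at hab
  exact inv_injective hab

/-- `h` is not locally constant. -/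
theorem not_const [PreconnectedSpace R] (H : SimplePole p h) {q : R} (hq : q ≠ p) :
    ¬ ∀ᶠ y in 𝓝 q, h y = h q := by
  intro hcon
  let A : Set R := {x | x ≠ p ∧ ∀ᶠ y in 𝓝 x, h y = h x}
  have hAo : IsOpen A := by
    rw [isOpen_iff_mem_nhds]
    rintro x ⟨hx1, hx2⟩
    filter_upwards [isOpen_ne.mem_nhds hx1, eventually_eventually_nhds.mpr hx2, hx2]
      with y hy1 hy2 hy3
    exact ⟨hy1, by rwa [hy3]⟩
  have hpA : p ∉ closure A := by
    intro hpc
    obtain ⟨U, hU, hinj⟩ := H.injOn_near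
    obtain ⟨x, hx1, hx2, hx3⟩ := mem_closure_iff_nhds.mp hpc (interior U) (interior_mem_nhds.mpr hU)
    have := neBot_punctured x
    have h1 : ∀ᶠ y in 𝓝[≠] x, h y = h x := nhdsWithin_le_nhds hx3
    have h2 : ∀ᶠ y in 𝓝[≠] x, y ∈ interior U ∧ y ≠ p :=
      nhdsWithin_le_nhds (inter_mem (isOpen_interior.mem_nhds hx1) (isOpen_ne.mem_nhds hx2))
    obtain ⟨y, hy1, hy2, hy3⟩ := (h1.and (h2.and self_mem_nhdsWithin)).exists
    exact hy3 (hinj ⟨interior_subset hy2.1, hy2.2⟩ ⟨interior_subset hx1, hx2⟩ hy1)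
  have hAc : IsClosed A := by
    rw [← closure_subset_iff_isClosed]
    intro x hx
    have hxp : x ≠ p := fun h => hpA (h ▸ hx)
    refine ⟨hxp, ?_⟩
    by_contra hn
    have h1 := eventually_mfderiv_ne_zero (H.diff_ev hxp) hn
    have h2 : x ∉ A := fun h => hn h.2
    have h3 : ∃ᶠ y in 𝓝[≠] x, y ∈ A := by
      rw [mem_closure_iff_frequently] at hx
      rw [frequently_nhdsWithin_iff]
      refine hx.mono fun y hy => ⟨hy, fun h => h2 (h ▸ hy)⟩
    obtain ⟨y, hy1, hy2⟩ := (h3.and_eventually h1).exists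
    apply hy2
    have h4 : h =ᶠ[𝓝 y] fun _ => h y := hy1.2
    rw [h4.mfderiv_eq, mfderiv_const]
  have h1 : A = univ := IsClopen.eq_univ ⟨hAc, hAo⟩ ⟨q, hq, hcon⟩
  have h2 : p ∈ A := h1 ▸ mem_univ p
  exact h2.1 rfl

theorem isOpenAt [PreconnectedSpace R] (H : SimplePole p h) {q : R} (hq : q ≠ p) :
    𝓝 (h q) ≤ map h (𝓝 q) :=
  nhds_le_map (H.diff_ev hq) (H.not_const hq)

omit [IsManifold 𝓘(ℂ) ω R] in
theorem continuousAt (H : SimplePole p h) {q : R} (hq : q ≠ p) : ContinuousAt h q :=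
  (H.diff q hq).continuousAt

omit [IsManifold 𝓘(ℂ) ω R] in
theorem isCompact_le [CompactSpace R] (H : SimplePole p h) (M : ℝ) :
    IsCompact {q | q ≠ p ∧ ‖h q‖ ≤ M} := by
  refine IsClosed.isCompact ?_
  rw [← isOpen_compl_iff, isOpen_iff_mem_nhds]
  intro q hq
  by_cases hqp : q = p
  · subst hqp
    have h1 := H.tendsto_norm.eventually_gt_atTop M
    rw [eventually_nhdsWithin_iff] at h1
    filter_upwards [h1] with y hy hy'
    exact absurd hy'.2 (not_le_of_gt (hy hy'.1))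
  · have h1 : M < ‖h q‖ := by
      by_contra h2
      exact hq ⟨hqp, not_lt.mp h2⟩
    filter_upwards [(H.continuousAt hqp).norm.eventually (lt_mem_nhds h1)] with y hy hy'
    exact absurd hy'.2 (not_le_of_gt hy)

/-- `h` takes all values. -/
theorem surj [CompactSpace R] [PreconnectedSpace R] (H : SimplePole p h) (c : ℂ) :
    ∃ q, q ≠ p ∧ h q = c := by
  let B : Set ℂ := {c | ∃ q, q ≠ p ∧ h q = c}
  have hBo : IsOpen B := by
    rw [isOpen_iff_mem_nhds]
    rintro c ⟨q, hq, rfl⟩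
    refine H.isOpenAt hq ?_
    rw [mem_map]
    filter_upwards [isOpen_ne.mem_nhds hq] with y hy
    exact ⟨y, hy, rfl⟩
  have hBc : IsClosed B := by
    rw [← closure_subset_iff_isClosed]
    intro c hc
    have hK := H.isCompact_le (‖c‖ + 1)
    have hK' : IsClosed (h '' {q | q ≠ p ∧ ‖h q‖ ≤ ‖c‖ + 1}) :=
      (hK.image_of_continuousOn fun q hq => (H.continuousAt hq.1).continuousWithinAt).isClosed
    have h1 : c ∈ closure (h '' {q | q ≠ p ∧ ‖h q‖ ≤ ‖c‖ + 1}) := by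
      rw [mem_closure_iff_nhds] at hc ⊢
      intro U hU
      obtain ⟨d, hd, q, hq, rfl⟩ := hc (U ∩ Metric.ball c 1)
        (inter_mem hU (Metric.ball_mem_nhds _ one_pos))
      refine ⟨h q, hd.1, q, ⟨hq, ?_⟩, rfl⟩
      have h2 := hd.2
      rw [Metric.mem_ball, dist_eq_norm] at h2
      have := norm_sub_norm_le (h q) c
      linarith
    rw [hK'.closure_eq] at h1
    obtain ⟨q, hq, rfl⟩ := h1
    exact ⟨q, hq.1, rfl⟩
  have hBn : B.Nonempty := by
    have := neBot_punctured p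
    obtain ⟨q, hq⟩ := this.nonempty_of_mem (self_mem_nhdsWithin : {p}ᶜ ∈ 𝓝[≠] p)
    exact ⟨h q, q, hq, rfl⟩
  have h1 : B = univ := IsClopen.eq_univ ⟨hBc, hBo⟩ hBn
  have h2 : c ∈ B := by
    rw [h1]
    exact mem_univ c
  exact h2

/-- Near the pole the derivative does not vanish. -/
theorem near_mfderiv_ne_zero (H : SimplePole p h) :
    ∀ᶠ y in 𝓝[≠] p, mfderiv 𝓘(ℂ) 𝓘(ℂ) h y ≠ 0 := by
  obtain ⟨k, hk, hk0, hk1, hk2⟩ := H.pole
  have hp := mem_chart_source ℂ p
  have hz := mem_chart_target ℂ p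
  have h1 : ∀ᶠ z in 𝓝[≠] (chartAt ℂ p p), k z ≠ 0 :=
    hk.differentiableAt.hasDerivAt.eventually_ne (c := 0) hk1
  have h2 : ∀ᶠ z in 𝓝[≠] (chartAt ℂ p p), ∀ᶠ w in 𝓝 z, h ((chartAt ℂ p).symm w) = (k w)⁻¹ := by
    rw [← eventually_eventually_nhdsWithin] at hk2
    filter_upwards [hk2, self_mem_nhdsWithin] with z h3 h4
    rwa [isOpen_compl_singleton.nhdsWithin_eq h4] at h3
  have h3 : ∀ᶠ z in 𝓝[≠] (chartAt ℂ p p), deriv k z ≠ 0 :=
    nhdsWithin_le_nhds (hk.deriv.continuousAt.eventually_ne hk1)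
  have h4 : ∀ᶠ z in 𝓝[≠] (chartAt ℂ p p), AnalyticAt ℂ k z :=
    nhdsWithin_le_nhds hk.eventually_analyticAt
  have h5 : ∀ᶠ z in 𝓝[≠] (chartAt ℂ p p), deriv (h ∘ (chartAt ℂ p).symm) z ≠ 0 := by
    filter_upwards [h1, h2, h3, h4] with z h1 h2 h3 h4
    have h6 : h ∘ (chartAt ℂ p).symm =ᶠ[𝓝 z] k⁻¹ := h2
    rw [h6.deriv_eq, (h4.differentiableAt.hasDerivAt.inv h1).deriv]
    exact div_ne_zero (neg_ne_zero.mpr h3) (pow_ne_zero 2 h1)
  have h6 := (tendsto_chart_punctured hp).eventually h5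
  have h7 : ∀ᶠ y in 𝓝[≠] p, y ∈ (chartAt ℂ p).source :=
    nhdsWithin_le_nhds ((chartAt ℂ p).open_source.mem_nhds hp)
  filter_upwards [h6, h7, self_mem_nhdsWithin] with y hy hy' hyp
  have := mfderiv_ne_zero_of_loc ((chartAt ℂ p).map_source hy')
    (by rw [(chartAt ℂ p).left_inv hy']; exact H.diff y hyp) hy
  rwa [(chartAt ℂ p).left_inv hy'] at this

/-- The points outside `p` where the derivative vanishes are finite in number. -/
theorem finite_bad [CompactSpace R] [PreconnectedSpace R] (H : SimplePole p h) :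
    {q | q ≠ p ∧ mfderiv 𝓘(ℂ) 𝓘(ℂ) h q = 0}.Finite := by
  by_contra hinf
  obtain ⟨x, -, hx⟩ := Set.Infinite.exists_accPt_of_subset_isCompact hinf isCompact_univ
    (subset_univ _)
  rw [accPt_iff_frequently_nhdsNE] at hx
  by_cases hxp : x = p
  · subst hxp
    obtain ⟨y, hy1, hy2⟩ := (hx.and_eventually H.near_mfderiv_ne_zero).exists
    exact hy2 hy1.2
  · obtain ⟨y, hy1, hy2⟩ := (hx.and_eventually
      (eventually_mfderiv_ne_zero (H.diff_ev hxp) (H.not_const hxp))).exists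
    exact hy2 hy1.2

/-- For large `c` there is at most one point with value `c`. -/
theorem unique_of_large [CompactSpace R] (H : SimplePole p h) :
    ∃ M : ℝ, ∀ x y, x ≠ p → y ≠ p → M < ‖h x‖ → h x = h y → x = y := by
  obtain ⟨U, hU, hinj⟩ := H.injOn_near
  have hK : IsCompact (interior U)ᶜ := isOpen_interior.isClosed_compl.isCompact
  have hcont : ContinuousOn h (interior U)ᶜ := by
    intro q hq
    have : q ≠ p := fun h => hq (h ▸ mem_interior_iff_mem_nhds.mpr hU)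
    exact (H.continuousAt this).continuousWithinAt
  obtain ⟨M, hM⟩ := (hK.image_of_continuousOn hcont).isBounded.exists_norm_le
  refine ⟨M, fun x y hx hy hxM hxy => ?_⟩
  have h1 : ∀ z, M < ‖h z‖ → z ∈ interior U := by
    intro z hz
    by_contra hz'
    exact absurd (hM _ ⟨z, hz', rfl⟩) (not_le_of_gt hz)
  exact hinj ⟨interior_subset (h1 x hxM), hx⟩ ⟨interior_subset (h1 y (hxy ▸ hxM)), hy⟩ hxy

/-- `h` is injective. -/
theorem inj [T2Space R] [CompactSpace R] [PreconnectedSpace R] (H : SimplePole p h) {x y : R}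
    (hx : x ≠ p) (hy : y ≠ p) (hxy : h x = h y) : x = y := by
  let S : Set ℂ := {c | ∃ x y, x ≠ p ∧ y ≠ p ∧ x ≠ y ∧ h x = c ∧ h y = c}
  let S' : Set ℂ := {c | ∃ x, x ≠ p ∧ h x = c ∧ mfderiv 𝓘(ℂ) 𝓘(ℂ) h x ≠ 0 ∧
    ∀ y, y ≠ p → h y = c → y = x}
  let T : Set ℂ := h '' {q | q ≠ p ∧ mfderiv 𝓘(ℂ) 𝓘(ℂ) h q = 0}
  have hT : T.Finite := H.finite_bad.image h
  have hSo : IsOpen S := by
    rw [isOpen_iff_mem_nhds]
    rintro c ⟨x, y, hx, hy, hxy, rfl, hyc⟩
    obtain ⟨U, V, hU, hV, hxU, hyV, hUV⟩ := t2_separation hxy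
    have h1 : h '' (U \ {p}) ∈ 𝓝 (h x) := by
      refine H.isOpenAt hx (mem_map.mpr ?_)
      filter_upwards [hU.mem_nhds hxU, isOpen_ne.mem_nhds hx] with z hz hz'
      exact ⟨z, ⟨hz, hz'⟩, rfl⟩
    have h2 : h '' (V \ {p}) ∈ 𝓝 (h x) := by
      rw [← hyc]
      refine H.isOpenAt hy (mem_map.mpr ?_)
      filter_upwards [hV.mem_nhds hyV, isOpen_ne.mem_nhds hy] with z hz hz'
      exact ⟨z, ⟨hz, hz'⟩, rfl⟩
    filter_upwards [h1, h2] with d hd1 hd2
    obtain ⟨a, ⟨ha1, ha2⟩, ha3⟩ := hd1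
    obtain ⟨b, ⟨hb1, hb2⟩, hb3⟩ := hd2
    exact ⟨a, b, ha2, hb2, fun hab => Set.disjoint_left.mp hUV ha1 (hab ▸ hb1), ha3, hb3⟩
  have hS'o : IsOpen (S' \ T) := by
    rw [isOpen_iff_mem_nhds]
    rintro c ⟨⟨x, hx, rfl, hxd, hxu⟩, hcT⟩
    obtain ⟨U, hU, hinj⟩ := locInj_of_mfderiv_ne_zero (H.diff_ev hx) hxd
    have hK : IsCompact ({q | q ≠ p ∧ ‖h q‖ ≤ ‖h x‖ + 1} \ interior U) :=
      (H.isCompact_le (‖h x‖ + 1)).diff isOpen_interior
    have hK' : IsClosed (h '' ({q | q ≠ p ∧ ‖h q‖ ≤ ‖h x‖ + 1} \ interior U)) :=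
      (hK.image_of_continuousOn fun q hq => (H.continuousAt hq.1.1).continuousWithinAt).isClosed
    have h1 : h x ∉ h '' ({q | q ≠ p ∧ ‖h q‖ ≤ ‖h x‖ + 1} \ interior U) := by
      rintro ⟨q, ⟨⟨hq1, -⟩, hq2⟩, hq3⟩
      rw [hxu q hq1 hq3] at hq2
      exact hq2 (mem_interior_iff_mem_nhds.mpr hU)
    filter_upwards [hK'.isOpen_compl.mem_nhds h1, Metric.ball_mem_nhds (h x) one_pos,
      hT.isClosed.isOpen_compl.mem_nhds hcT] with d hd1 hd2 hd3
    have h2 : ∀ y, y ≠ p → h y = d → y ∈ interior U := by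
      intro y hy hyd
      by_contra hyU
      refine hd1 ⟨y, ⟨⟨hy, ?_⟩, hyU⟩, hyd⟩
      rw [hyd]
      rw [Metric.mem_ball, dist_eq_norm] at hd2
      have := norm_sub_norm_le d (h x)
      linarith
    obtain ⟨y, hy, hyd⟩ := H.surj d
    refine ⟨⟨y, hy, hyd, fun h0 => hd3 ⟨y, ⟨hy, h0⟩, hyd⟩, fun z hz hzd => ?_⟩, hd3⟩
    exact hinj (interior_subset (h2 z hz hzd)) (interior_subset (h2 y hy hyd))
      (hzd.trans hyd.symm)
  have hcover : ∀ c ∉ T, c ∈ S ∨ c ∈ S' := by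
    intro c hc
    obtain ⟨x, hx, rfl⟩ := H.surj c
    by_cases h1 : ∀ y, y ≠ p → h y = h x → y = x
    · exact Or.inr ⟨x, hx, rfl, fun h0 => hc ⟨x, ⟨hx, h0⟩, rfl⟩, h1⟩
    · push Not at h1
      obtain ⟨y, hy1, hy2, hy3⟩ := h1
      exact Or.inl ⟨x, y, hx, hy1, hy3.symm, rfl, hy2⟩
  have hconn : IsPreconnected (Tᶜ) :=
    (hT.countable.isPathConnected_compl_of_one_lt_rank
      (by rw [Complex.rank_real_complex]; norm_num)).isConnected.isPreconnected
  have hdisj : S ∩ (S' \ T) = ∅ := by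
    rw [Set.eq_empty_iff_forall_notMem]
    rintro c ⟨⟨x, y, hx, hy, hxy, hxc, hyc⟩, ⟨z, hz, hzc, -, hzu⟩, -⟩
    exact hxy ((hzu x hx hxc).trans (hzu y hy hyc).symm)
  have hS'n : (Tᶜ ∩ (S' \ T)).Nonempty := by
    obtain ⟨M, hM⟩ := H.unique_of_large
    obtain ⟨M', hM'⟩ := hT.isBounded.exists_norm_le
    obtain ⟨c, hc⟩ : ∃ c : ℂ, max M M' < ‖c‖ := by
      refine ⟨((|max M M'| + 1 : ℝ) : ℂ), ?_⟩
      rw [Complex.norm_real, Real.norm_eq_abs, abs_of_pos (by positivity)]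
      exact lt_of_le_of_lt (le_abs_self _) (lt_add_one _)
    have hcT : c ∉ T := fun h => absurd (hM' c h) (not_le_of_gt ((le_max_right _ _).trans_lt hc))
    obtain ⟨x, hx, rfl⟩ := H.surj c
    refine ⟨h x, hcT, ⟨x, hx, rfl, fun h0 => hcT ⟨x, ⟨hx, h0⟩, rfl⟩, fun y hy hyx => ?_⟩, hcT⟩
    exact (hM x y hx hy ((le_max_left _ _).trans_lt hc) hyx.symm).symm
  have hSe : S = ∅ := by
    by_contra hne
    have hne' : S.Nonempty := Set.nonempty_iff_ne_empty.mpr hne
    have h1 : (Tᶜ ∩ S).Nonempty := by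
      by_contra h2
      obtain ⟨c, hc⟩ := hne'
      have h3 : S ⊆ T := by
        intro d hd
        by_contra hdT
        exact h2 ⟨d, hdT, hd⟩
      have h4 : (𝓝 c).NeBot := inferInstance
      exact (infinite_of_mem_nhds c (hSo.mem_nhds hc)) (hT.subset h3)
    obtain ⟨c, -, hc⟩ := hconn S (S' \ T) hSo hS'o
      (fun c hc => (hcover c hc).imp id fun h => ⟨h, hc⟩) h1 hS'n
    rw [hdisj] at hc
    exact hc
  by_contra hne
  have : h x ∈ S := ⟨x, y, hx, hy, hne, rfl, hxy.symm⟩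
  rw [hSe] at this
  exact this

end T1

/-! ### The inverse function -/

section Inverse

variable [T2Space R] [CompactSpace R] [PreconnectedSpace R]

/-- The inverse function. -/
noncomputable def inv (H : SimplePole p h) (c : ℂ) : R := (H.surj c).choose

theorem inv_ne (H : SimplePole p h) (c : ℂ) : H.inv c ≠ p := (H.surj c).choose_spec.1

theorem map_inv (H : SimplePole p h) (c : ℂ) : h (H.inv c) = c := (H.surj c).choose_spec.2

theorem inv_map (H : SimplePole p h) {x : R} (hx : x ≠ p) : H.inv (h x) = x :=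
  H.inj (H.inv_ne _) hx (H.map_inv _)

theorem inv_injective (H : SimplePole p h) : Function.Injective H.inv := fun a b hab => by
  rw [← H.map_inv a, hab, H.map_inv]

theorem continuous_inv (H : SimplePole p h) : Continuous H.inv := by
  rw [continuous_iff_continuousAt]
  intro c U hU
  have h1 : h '' (U \ {p}) ∈ 𝓝 c := by
    have h2 := H.isOpenAt (H.inv_ne c)
    rw [H.map_inv] at h2
    refine h2 (mem_map.mpr ?_)
    filter_upwards [hU, isOpen_ne.mem_nhds (H.inv_ne c)] with z hz hz'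
    exact ⟨z, ⟨hz, hz'⟩, rfl⟩
  rw [mem_map]
  filter_upwards [h1] with d hd
  obtain ⟨y, ⟨hy1, hy2⟩, rfl⟩ := hd
  rw [mem_preimage, H.inv_map hy2]
  exact hy1

theorem mdifferentiableAt_inv_of_ne (H : SimplePole p h) {c : ℂ}
    (hc : mfderiv 𝓘(ℂ) 𝓘(ℂ) h (H.inv c) ≠ 0) :
    MDifferentiableAt 𝓘(ℂ) 𝓘(ℂ) H.inv c := by
  have := isManifold_one (R := R)
  set x := H.inv c with hx
  have hxp : x ≠ p := H.inv_ne c
  have hxs := mem_chart_source ℂ x
  have hz := mem_chart_target ℂ x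
  have h1 := loc_ne_zero_of_mfderiv hxs (H.diff x hxp) hc
  have hd' : ∀ᶠ y in 𝓝 ((chartAt ℂ x).symm (chartAt ℂ x x)),
      MDifferentiableAt 𝓘(ℂ) 𝓘(ℂ) h y := by
    rw [(chartAt ℂ x).left_inv hxs]
    exact H.diff_ev hxp
  have h2 := loc_analyticAt hz hd'
  have h3 : HasStrictDerivAt (h ∘ (chartAt ℂ x).symm) (deriv (h ∘ (chartAt ℂ x).symm)
    (chartAt ℂ x x)) (chartAt ℂ x x) := h2.hasStrictDerivAt
  have h4 : (h ∘ (chartAt ℂ x).symm) (chartAt ℂ x x) = c := by
    rw [Function.comp_apply, (chartAt ℂ x).left_inv hxs, hx, H.map_inv]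
  have h5 := h3.to_localInverse h1
  have h6 := h3.eventually_right_inverse h1
  have h7 : h3.localInverse _ _ _ h1 c = chartAt ℂ x x := by
    have := (h3.eventually_left_inverse h1).self_of_nhds
    rwa [h4] at this
  rw [h4] at h5 h6
  have h8 : ContinuousAt (h3.localInverse _ _ _ h1) c := h5.hasDerivAt.continuousAt
  have h9 : ∀ᶠ d in 𝓝 c, h3.localInverse _ _ _ h1 d ∈ (chartAt ℂ x).target ∧
      (chartAt ℂ x).symm (h3.localInverse _ _ _ h1 d) ≠ p := by
    have h10 : ContinuousAt (fun d => (chartAt ℂ x).symm (h3.localInverse _ _ _ h1 d)) c := by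
      refine ContinuousAt.comp (f := h3.localInverse _ _ _ h1) (g := (chartAt ℂ x).symm) ?_ h8
      rw [h7]
      exact (chartAt ℂ x).continuousAt_symm hz
    refine (h8.eventually (p := fun z => z ∈ (chartAt ℂ x).target) ?_).and (h10.eventually_ne ?_)
    · rw [h7]
      exact target_eventually hz
    · rw [h7, (chartAt ℂ x).left_inv hxs]
      exact hxp
  have h10 : H.inv =ᶠ[𝓝 c] (chartAt ℂ x).symm ∘ (h3.localInverse _ _ _ h1) := by
    filter_upwards [h6, h9] with d hd1 hd2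
    have : h ((chartAt ℂ x).symm (h3.localInverse _ _ _ h1 d)) = d := hd1
    rw [Function.comp_apply, ← H.inv_map hd2.2, this]
  refine MDifferentiableAt.congr_of_eventuallyEq ?_ h10
  refine MDifferentiableAt.comp c ?_ h5.hasDerivAt.differentiableAt.mdifferentiableAt
  rw [h7]
  exact mdifferentiableAt_atlas_symm (chart_mem_atlas ℂ x) hz

/-- In a chart, the inverse function is analytic. -/
theorem analyticAt_inv (H : SimplePole p h) (c : ℂ) :
    AnalyticAt ℂ (chartAt ℂ (H.inv c) ∘ H.inv) c := by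
  have := isManifold_one (R := R)
  have hxs := mem_chart_source ℂ (H.inv c)
  refine Complex.analyticAt_of_differentiable_on_punctured_nhds_of_continuousAt ?_
    (ContinuousAt.comp ((chartAt ℂ (H.inv c)).continuousAt hxs) H.continuous_inv.continuousAt)
  have h1 : ((h '' {q | q ≠ p ∧ mfderiv 𝓘(ℂ) 𝓘(ℂ) h q = 0}) \ {c}).Finite :=
    (H.finite_bad.image h).subset sdiff_subset
  have h2 : ∀ᶠ d in 𝓝[≠] c, d ∉ h '' {q | q ≠ p ∧ mfderiv 𝓘(ℂ) 𝓘(ℂ) h q = 0} := by
    have h3 : ∀ᶠ d in 𝓝 c, d ∉ (h '' {q | q ≠ p ∧ mfderiv 𝓘(ℂ) 𝓘(ℂ) h q = 0}) \ {c} :=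
      h1.isClosed.isOpen_compl.mem_nhds fun h => h.2 rfl
    filter_upwards [nhdsWithin_le_nhds h3, self_mem_nhdsWithin] with d hd1 hd2 hd3
    exact hd1 ⟨hd3, hd2⟩
  have h4 : ∀ᶠ d in 𝓝[≠] c, H.inv d ∈ (chartAt ℂ (H.inv c)).source :=
    nhdsWithin_le_nhds (H.continuous_inv.continuousAt.eventually
      ((chartAt ℂ (H.inv c)).open_source.mem_nhds hxs))
  filter_upwards [h2, h4] with d hd1 hd2
  rw [← mdifferentiableAt_iff_differentiableAt]
  refine MDifferentiableAt.comp d (mdifferentiableAt_atlas (chart_mem_atlas ℂ _) hd2) ?_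
  refine H.mdifferentiableAt_inv_of_ne fun h0 => hd1 ⟨H.inv d, ⟨H.inv_ne d, h0⟩, H.map_inv d⟩

theorem contMDiff_inv (H : SimplePole p h) : ContMDiff 𝓘(ℂ) 𝓘(ℂ) ω H.inv := by
  intro c
  rw [contMDiffAt_iff]
  refine ⟨H.continuous_inv.continuousAt, ?_⟩
  have := (H.analyticAt_inv c).contDiffAt (n := ω)
  simp only [mfld_simps]
  exact this.contDiffWithinAt

/-- The derivative of the inverse function is injective. -/
theorem injective_mfderiv_inv (H : SimplePole p h) (c : ℂ) :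
    Function.Injective (mfderiv 𝓘(ℂ) 𝓘(ℂ) H.inv c) := by
  have := isManifold_one (R := R)
  have h1 : MDifferentiableAt 𝓘(ℂ) 𝓘(ℂ) H.inv c :=
    (H.contMDiff_inv c).mdifferentiableAt (by simp)
  have h2 : h ∘ H.inv = id := funext fun c => H.map_inv c
  have h3 := mfderiv_comp c (H.diff _ (H.inv_ne c)) h1
  rw [h2, mfderiv_id] at h3
  intro v w hvw
  have h4 : ∀ v, v = (mfderiv 𝓘(ℂ) 𝓘(ℂ) h (H.inv c)) (mfderiv 𝓘(ℂ) 𝓘(ℂ) H.inv c v) :=
    fun v => congrArg (fun f => f v) h3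
  rw [h4 v, h4 w, hvw]

open Classical in
/-- The inverse function in the coordinate at infinity. -/
noncomputable def invInf (H : SimplePole p h) (w : ℂ) : R := if w = 0 then p else H.inv w⁻¹

theorem invInf_zero (H : SimplePole p h) : H.invInf 0 = p := if_pos rfl

theorem invInf_of_ne (H : SimplePole p h) {w : ℂ} (hw : w ≠ 0) : H.invInf w = H.inv w⁻¹ :=
  if_neg hw

theorem invInf_injective (H : SimplePole p h) : Function.Injective H.invInf := by
  intro a b hab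
  by_cases ha : a = 0 <;> by_cases hb : b = 0
  · rw [ha, hb]
  · rw [ha, H.invInf_zero, H.invInf_of_ne hb] at hab
    exact absurd hab.symm (H.inv_ne _)
  · rw [hb, H.invInf_zero, H.invInf_of_ne ha] at hab
    exact absurd hab (H.inv_ne _)
  · rw [H.invInf_of_ne ha, H.invInf_of_ne hb] at hab
    exact _root_.inv_injective (H.inv_injective hab)

theorem exists_local_inverse_inf (H : SimplePole p h) : ∃ g : ℂ → ℂ, AnalyticAt ℂ g 0 ∧
    g 0 = chartAt ℂ p p ∧ deriv g 0 ≠ 0 ∧ H.invInf =ᶠ[𝓝 0] (chartAt ℂ p).symm ∘ g := by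
  obtain ⟨k, hk, hk0, hk1, hk2⟩ := H.pole
  have hps := mem_chart_source ℂ p
  have hz := mem_chart_target ℂ p
  have h3 : HasStrictDerivAt k (deriv k (chartAt ℂ p p)) (chartAt ℂ p p) := hk.hasStrictDerivAt
  have h5 := h3.to_localInverse hk1
  have h6 := h3.eventually_right_inverse hk1
  have h7 : h3.localInverse _ _ _ hk1 0 = chartAt ℂ p p := by
    have := (h3.eventually_left_inverse hk1).self_of_nhds
    rwa [hk0] at this
  rw [hk0] at h5 h6
  have h8 : ContinuousAt (h3.localInverse _ _ _ hk1) 0 := h5.hasDerivAt.continuousAt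
  have h8' : Tendsto (h3.localInverse _ _ _ hk1) (𝓝[≠] 0) (𝓝[≠] (chartAt ℂ p p)) := by
    refine tendsto_nhdsWithin_iff.mpr ⟨?_, ?_⟩
    · rw [ContinuousAt, h7] at h8
      exact h8.mono_left nhdsWithin_le_nhds
    · filter_upwards [nhdsWithin_le_nhds h6, self_mem_nhdsWithin] with w hw1 hw2 hw3
      rw [hw3, hk0] at hw1
      exact hw2 hw1.symm
  have h9 : ∀ᶠ z in 𝓝[≠] (chartAt ℂ p p), (chartAt ℂ p).symm z ≠ p := by
    have := tendsto_symm_punctured hz
    rw [(chartAt ℂ p).left_inv hps] at this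
    exact this.eventually self_mem_nhdsWithin
  have h10 : ∀ᶠ w in 𝓝[≠] (0 : ℂ), H.invInf w =
      ((chartAt ℂ p).symm ∘ (h3.localInverse _ _ _ hk1)) w := by
    filter_upwards [nhdsWithin_le_nhds h6, h8'.eventually (hk2.and h9), self_mem_nhdsWithin]
      with w hw1 hw2 hw3
    rw [H.invInf_of_ne hw3, Function.comp_apply, ← H.inv_map hw2.2, hw2.1, hw1]
  have h11 : H.invInf =ᶠ[𝓝 0] (chartAt ℂ p).symm ∘ (h3.localInverse _ _ _ hk1) := by
    rw [eventually_nhdsWithin_iff] at h10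
    filter_upwards [h10] with w hw
    by_cases hw0 : w = 0
    · rw [hw0, H.invInf_zero, Function.comp_apply, h7, (chartAt ℂ p).left_inv hps]
    · exact hw hw0
  refine ⟨h3.localInverse _ _ _ hk1, ?_, h7, ?_, h11⟩
  · have := hk.analyticAt_localInverse hk1
    rwa [hk0] at this
  · rw [h5.hasDerivAt.deriv]
    exact inv_ne_zero hk1

theorem contMDiff_invInf (H : SimplePole p h) : ContMDiff 𝓘(ℂ) 𝓘(ℂ) ω H.invInf := by
  intro w
  by_cases hw : w = 0
  · subst hw
    obtain ⟨g, hg1, hg2, -, hg3⟩ := H.exists_local_inverse_inf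
    refine ContMDiffAt.congr_of_eventuallyEq ?_ hg3
    refine ContMDiffAt.comp (0 : ℂ) ?_ hg1.contDiffAt.contMDiffAt
    rw [hg2]
    exact contMDiffAt_symm_of_mem_maximalAtlas (IsManifold.chart_mem_maximalAtlas p)
      (mem_chart_target ℂ p)
  · have h1 : H.invInf =ᶠ[𝓝 w] H.inv ∘ fun w => w⁻¹ := by
      filter_upwards [isOpen_ne.mem_nhds hw] with v hv
      exact H.invInf_of_ne hv
    refine ContMDiffAt.congr_of_eventuallyEq ?_ h1
    refine ContMDiffAt.comp w (H.contMDiff_inv _) ?_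
    exact (contDiffAt_inv ℂ hw).contMDiffAt

omit [IsManifold 𝓘(ℂ) ω R] [T2Space R] [CompactSpace R] [PreconnectedSpace R] in
theorem _root_.Vale.Agent.P267.H332.injective_mfderiv_of_comp {F : ℂ → R} {G : R → ℂ} {g : ℂ → ℂ}
    {w : ℂ} (hF : MDifferentiableAt 𝓘(ℂ) 𝓘(ℂ) F w)
    (hG : MDifferentiableAt 𝓘(ℂ) 𝓘(ℂ) G (F w)) (h1 : G ∘ F =ᶠ[𝓝 w] g) (h2 : deriv g w ≠ 0) :
    Function.Injective (mfderiv 𝓘(ℂ) 𝓘(ℂ) F w) := by
  have h3 := mfderiv_comp w hG hF
  rw [h1.mfderiv_eq, mfderiv_eq_fderiv] at h3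
  have h4 : ∀ v : ℂ, fderiv ℂ g w v =
      (mfderiv 𝓘(ℂ) 𝓘(ℂ) G (F w)) (mfderiv 𝓘(ℂ) 𝓘(ℂ) F w v) :=
    fun v => congrArg (fun f => f v) h3
  have h6 : ∀ v : ℂ, fderiv ℂ g w v = deriv g w * v := by
    intro v
    have : fderiv ℂ g w (v • (1 : ℂ)) = v • fderiv ℂ g w 1 := map_smul _ _ _
    rw [smul_eq_mul, mul_one, smul_eq_mul] at this
    rw [this, mul_comm]
    rfl
  have key : ∀ v v' : ℂ, mfderiv 𝓘(ℂ) 𝓘(ℂ) F w v = mfderiv 𝓘(ℂ) 𝓘(ℂ) F w v' → v = v' := by
    intro v v' hv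
    have h5 : deriv g w * v = deriv g w * v' :=
      (h6 v).symm.trans ((h4 v).trans ((congrArg _ hv).trans ((h4 v').symm.trans (h6 v'))))
    exact mul_left_cancel₀ h2 h5
  exact fun v v' hv => key v v' hv

theorem injective_mfderiv_invInf (H : SimplePole p h) (w : ℂ) :
    Function.Injective (mfderiv 𝓘(ℂ) 𝓘(ℂ) H.invInf w) := by
  have := isManifold_one (R := R)
  have hF : MDifferentiableAt 𝓘(ℂ) 𝓘(ℂ) H.invInf w :=
    (H.contMDiff_invInf w).mdifferentiableAt (by simp)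
  by_cases hw : w = 0
  · subst hw
    obtain ⟨g, hg1, hg2, hg3, hg4⟩ := H.exists_local_inverse_inf
    refine injective_mfderiv_of_comp (G := chartAt ℂ p) (g := g) hF ?_ ?_ hg3
    · rw [H.invInf_zero]
      exact mdifferentiableAt_atlas (chart_mem_atlas ℂ p) (mem_chart_source ℂ p)
    · have h1 : ∀ᶠ z in 𝓝 (0 : ℂ), g z ∈ (chartAt ℂ p).target := by
        refine hg1.continuousAt.eventually ?_
        rw [hg2]
        exact target_eventually (mem_chart_target ℂ p)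
      filter_upwards [h1, hg4] with z hz1 hz2
      rw [Function.comp_apply, hz2, Function.comp_apply, (chartAt ℂ p).right_inv hz1]
  · refine injective_mfderiv_of_comp (G := h) (g := fun w => w⁻¹) hF ?_ ?_ ?_
    · rw [H.invInf_of_ne hw]
      exact H.diff _ (H.inv_ne _)
    · filter_upwards [isOpen_ne.mem_nhds hw] with v hv
      rw [Function.comp_apply, H.invInf_of_ne hv, H.map_inv]
    · rw [deriv_inv]
      exact neg_ne_zero.mpr (inv_ne_zero (pow_ne_zero 2 hw))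

theorem range_inv (H : SimplePole p h) : range H.inv = {p}ᶜ := by
  ext x
  constructor
  · rintro ⟨c, rfl⟩
    exact H.inv_ne c
  · intro hx
    exact ⟨h x, H.inv_map hx⟩

end Inverse

end SimplePole

/-! ### Solving the d-bar equation produces a function with a simple pole -/

/-- The operator `∂/∂z̄` on functions of one complex variable. -/
noncomputable def dbar (g : ℂ → ℂ) (z : ℂ) : ℂ :=
  (fderiv ℝ g z 1 + Complex.I * fderiv ℝ g z Complex.I) / 2

theorem differentiableAt_of_dbar {g : ℂ → ℂ} {z : ℂ} (hg : DifferentiableAt ℝ g z)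
    (h : dbar g z = 0) : DifferentiableAt ℂ g z := by
  rw [differentiableAt_complex_iff_differentiableAt_real]
  refine ⟨hg, ?_⟩
  rw [dbar, div_eq_zero_iff] at h
  have h1 := h.resolve_right two_ne_zero
  rw [smul_eq_mul, eq_neg_of_add_eq_zero_left h1, mul_neg, ← mul_assoc, Complex.I_mul_I]
  ring

theorem dbar_eq_zero {g : ℂ → ℂ} {z : ℂ} (hg : DifferentiableAt ℂ g z) : dbar g z = 0 := by
  have h1 := ((differentiableAt_complex_iff_differentiableAt_real).mp hg).2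
  rw [dbar, h1, smul_eq_mul, ← mul_assoc, Complex.I_mul_I]
  ring

theorem dbar_mul {f g : ℂ → ℂ} {z : ℂ} (hf : DifferentiableAt ℝ f z)
    (hg : DifferentiableAt ℝ g z) :
    dbar (fun w => f w * g w) z = dbar f z * g z + f z * dbar g z := by
  rw [dbar, dbar, dbar, fderiv_fun_mul hf hg]
  simp only [add_apply, smul_apply, smul_eq_mul]
  ring

theorem dbar_sub {f g : ℂ → ℂ} {z : ℂ} (hf : DifferentiableAt ℝ f z)
    (hg : DifferentiableAt ℝ g z) :
    dbar (fun w => f w - g w) z = dbar f z - dbar g z := by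
  rw [dbar, dbar, dbar, fderiv_fun_sub hf hg]
  simp only [sub_apply]
  ring

theorem dbar_congr {f g : ℂ → ℂ} {z : ℂ} (h : f =ᶠ[𝓝 z] g) : dbar f z = dbar g z := by
  rw [dbar, dbar, h.fderiv_eq]

theorem contDiff_dbar {f : ℂ → ℂ} (hf : ContDiff ℝ ∞ f) : ContDiff ℝ ∞ (dbar f) := by
  have h1 : ContDiff ℝ ∞ (fun z => fderiv ℝ f z) := hf.fderiv_right (by simp)
  unfold dbar
  exact ((h1.clm_apply contDiff_const).add
    (contDiff_const.mul (h1.clm_apply contDiff_const))).div_const _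

/-- If the d-bar equation is solvable for data supported in one chart, then there is a function
with one simple pole. -/
theorem exists_simplePole [T2Space R] (p : R)
    (hyp : ∀ b : ℂ → ℂ, ContDiff ℝ ∞ b → HasCompactSupport b →
      tsupport b ⊆ (chartAt ℂ p).target → ∃ u : R → ℂ,
        (∀ z ∈ (chartAt ℂ p).target, DifferentiableAt ℝ (u ∘ (chartAt ℂ p).symm) z ∧
          dbar (u ∘ (chartAt ℂ p).symm) z = b z) ∧
        ∀ q, q ∉ (chartAt ℂ p).source → MDifferentiableAt 𝓘(ℂ) 𝓘(ℂ) u q) :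
    ∃ h : R → ℂ, SimplePole p h := by
  classical
  have := isManifold_one (R := R)
  have hps := mem_chart_source ℂ p
  set e := chartAt ℂ p with he
  set a := e p with ha
  obtain ⟨r, hr, hball⟩ := Metric.nhds_basis_closedBall.mem_iff.mp
    (e.open_target.mem_nhds (mem_chart_target ℂ p))
  let χ : ContDiffBump a := ⟨r / 2, r, half_pos hr, half_lt_self hr⟩
  let c : ℂ → ℂ := fun z => ((χ z : ℝ) : ℂ)
  have hc : ContDiff ℝ ∞ c := Complex.ofRealCLM.contDiff.comp χ.contDiff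
  have hc1 : ∀ z ∈ Metric.ball a (r / 2), c z = 1 := fun z hz => by
    simp only [c, χ.one_of_mem_closedBall (Metric.ball_subset_closedBall hz), Complex.ofReal_one]
  have hc0 : ∀ z, z ∉ Metric.ball a r → c z = 0 := fun z hz => by
    have : χ z = 0 := χ.zero_of_le_dist (by simpa using hz)
    simp only [c, this, Complex.ofReal_zero]
  have hD0 : ∀ z ∈ Metric.ball a (r / 2), dbar c z = 0 := fun z hz => by
    have h1 : c =ᶠ[𝓝 z] fun _ => 1 := by
      filter_upwards [Metric.isOpen_ball.mem_nhds hz] with w hw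
      exact hc1 w hw
    rw [dbar_congr h1]
    exact dbar_eq_zero (differentiableAt_const _)
  let b : ℂ → ℂ := fun z => dbar c z * (z - a)⁻¹
  have hb : ContDiff ℝ ∞ b := by
    rw [contDiff_iff_contDiffAt]
    intro z
    by_cases hz : z = a
    · have h1 : b =ᶠ[𝓝 z] fun _ => 0 := by
        rw [hz]
        filter_upwards [Metric.ball_mem_nhds a (half_pos hr)] with w hw
        simp only [b, hD0 w hw, zero_mul]
      exact contDiffAt_const.congr_of_eventuallyEq h1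
    · refine (contDiff_dbar hc).contDiffAt.mul ?_
      have h1 : ContDiffAt ℂ ∞ (fun z => (z - a)⁻¹) z :=
        (contDiffAt_id.sub contDiffAt_const).inv (sub_ne_zero.mpr hz)
      exact h1.restrict_scalars ℝ
  have hbs : tsupport b ⊆ Metric.closedBall a r := by
    refine closure_minimal ?_ Metric.isClosed_closedBall
    intro z hz
    by_contra hz'
    apply hz
    have h1 : c =ᶠ[𝓝 z] fun _ => 0 := by
      filter_upwards [Metric.isClosed_closedBall.isOpen_compl.mem_nhds hz'] with w hw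
      exact hc0 w fun h => hw (Metric.ball_subset_closedBall h)
    simp only [b, dbar_congr h1]
    rw [dbar_eq_zero (differentiableAt_const _), zero_mul]
  obtain ⟨u, hu1, hu2⟩ := hyp b hb ((isCompact_closedBall a r).of_isClosed_subset
    (isClosed_tsupport b) hbs) (hbs.trans hball)
  let v : R → ℂ := fun q => if q ∈ e.source then c (e q) * (e q - a)⁻¹ else 0
  let U : ℂ → ℂ := u ∘ e.symm
  have hUa : AnalyticAt ℂ U a := by
    rw [Complex.analyticAt_iff_eventually_differentiableAt]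
    filter_upwards [Metric.ball_mem_nhds a (half_pos hr)] with z hz
    have h1 : z ∈ e.target := hball (Metric.ball_subset_closedBall
      (Metric.ball_subset_ball (half_le_self hr.le) hz))
    refine differentiableAt_of_dbar (hu1 z h1).1 ?_
    rw [(hu1 z h1).2]
    simp only [b, hD0 z hz, zero_mul]
  refine ⟨fun q => v q - u q, ?_, ?_⟩
  · intro q hq
    by_cases hqs : q ∈ e.source
    · have hza : e q ≠ a := fun h => hq (e.injOn hqs hps h)
      have hinv : DifferentiableAt ℂ (fun z : ℂ => (z - a)⁻¹) (e q) :=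
        (differentiableAt_id.sub (differentiableAt_const a)).inv (sub_ne_zero.mpr hza)
      have hcq : DifferentiableAt ℝ c (e q) := (hc.differentiable (by simp)).differentiableAt
      have hcm : DifferentiableAt ℝ (fun z => c z * (z - a)⁻¹) (e q) :=
        hcq.mul (hinv.restrictScalars ℝ)
      have hU : DifferentiableAt ℝ U (e q) := (hu1 _ (e.map_source hqs)).1
      have hF : DifferentiableAt ℂ (fun z => c z * (z - a)⁻¹ - U z) (e q) := by
        refine differentiableAt_of_dbar (hcm.sub hU) ?_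
        rw [dbar_sub hcm hU, dbar_mul hcq (hinv.restrictScalars ℝ), dbar_eq_zero hinv, mul_zero,
          add_zero, (hu1 _ (e.map_source hqs)).2, sub_self]
      have h1 : (fun q => v q - u q) =ᶠ[𝓝 q] (fun z => c z * (z - a)⁻¹ - U z) ∘ e := by
        filter_upwards [e.open_source.mem_nhds hqs] with y hy
        simp only [v, U, Function.comp_apply, if_pos hy, e.left_inv hy]
      refine MDifferentiableAt.congr_of_eventuallyEq ?_ h1
      exact MDifferentiableAt.comp q hF.mdifferentiableAt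
        (mdifferentiableAt_atlas (chart_mem_atlas ℂ p) hqs)
    · have hK : IsCompact (e.symm '' Metric.closedBall a r) :=
        (isCompact_closedBall a r).image_of_continuousOn (e.continuousOn_symm.mono hball)
      have hqK : q ∉ e.symm '' Metric.closedBall a r := by
        rintro ⟨z, hz, rfl⟩
        exact hqs (e.map_target (hball hz))
      have h1 : (fun q => v q - u q) =ᶠ[𝓝 q] fun q => 0 - u q := by
        filter_upwards [hK.isClosed.isOpen_compl.mem_nhds hqK] with y hy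
        by_cases hys : y ∈ e.source
        · have : e y ∉ Metric.ball a r := fun h =>
            hy ⟨e y, Metric.ball_subset_closedBall h, e.left_inv hys⟩
          simp only [v, if_pos hys, hc0 _ this, zero_mul]
        · simp only [v, if_neg hys]
      refine MDifferentiableAt.congr_of_eventuallyEq ?_ h1
      exact mdifferentiableAt_const.sub (hu2 q hqs)
  · have h1 : AnalyticAt ℂ (fun z => 1 - (z - a) * U z) a :=
      analyticAt_const.sub ((analyticAt_id.sub analyticAt_const).mul hUa)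
    have h2 : (fun z => 1 - (z - a) * U z) a ≠ 0 := by simp
    have h3 : AnalyticAt ℂ (fun z => (z - a) * (1 - (z - a) * U z)⁻¹) a :=
      (analyticAt_id.sub analyticAt_const).mul (h1.inv h2)
    change ∃ k : ℂ → ℂ, AnalyticAt ℂ k a ∧ k a = 0 ∧ deriv k a ≠ 0 ∧
      ∀ᶠ z in 𝓝[≠] a, v (e.symm z) - u (e.symm z) = (k z)⁻¹
    refine ⟨fun z => (z - a) * (1 - (z - a) * U z)⁻¹, h3, by simp, ?_, ?_⟩
    · have h4 : HasDerivAt (fun z => (z - a) * (1 - (z - a) * U z)⁻¹)
          (1 * (1 - (a - a) * U a)⁻¹ + (a - a) * deriv (fun z => (1 - (z - a) * U z)⁻¹) a) a :=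
        ((hasDerivAt_id a).sub_const a).mul (h1.inv h2).differentiableAt.hasDerivAt
      rw [h4.deriv]
      simp
    · have h4 : ∀ᶠ z in 𝓝[≠] a, z ∈ Metric.ball a (r / 2) :=
        nhdsWithin_le_nhds (Metric.ball_mem_nhds a (half_pos hr))
      filter_upwards [h4, self_mem_nhdsWithin] with z hz1 hz2
      have hzt : z ∈ e.target := hball (Metric.ball_subset_closedBall
        (Metric.ball_subset_ball (half_le_self hr.le) hz1))
      have hza : z - a ≠ 0 := sub_ne_zero.mpr hz2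
      have hv : v (e.symm z) = (z - a)⁻¹ := by
        simp only [v, if_pos (e.map_target hzt), e.right_inv hzt, hc1 z hz1, one_mul]
      have : u (e.symm z) = U z := rfl
      rw [hv, this, mul_inv_rev, inv_inv]
      field_simp

/-- **Rationality.** A compact connected Riemann surface on which the d-bar equation is solvable
for data supported in one chart is the projective line: there are two holomorphic injective
immersions `g0, ginf : ℂ → R` with `ginf w = g0 w⁻¹` for `w ≠ 0` and whose images cover `R`. -/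
theorem rational [T2Space R] [CompactSpace R] [PreconnectedSpace R] (p : R)
    (hyp : ∀ b : ℂ → ℂ, ContDiff ℝ ∞ b → HasCompactSupport b →
      tsupport b ⊆ (chartAt ℂ p).target → ∃ u : R → ℂ,
        (∀ z ∈ (chartAt ℂ p).target, DifferentiableAt ℝ (u ∘ (chartAt ℂ p).symm) z ∧
          dbar (u ∘ (chartAt ℂ p).symm) z = b z) ∧
        ∀ q, q ∉ (chartAt ℂ p).source → MDifferentiableAt 𝓘(ℂ) 𝓘(ℂ) u q) :
    ∃ g0 ginf : ℂ → R, ContMDiff 𝓘(ℂ) 𝓘(ℂ) ω g0 ∧ ContMDiff 𝓘(ℂ) 𝓘(ℂ) ω ginf ∧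
      Function.Injective g0 ∧ Function.Injective ginf ∧
      (∀ c, Function.Injective (mfderiv 𝓘(ℂ) 𝓘(ℂ) g0 c)) ∧
      (∀ c, Function.Injective (mfderiv 𝓘(ℂ) 𝓘(ℂ) ginf c)) ∧
      (∀ w, w ≠ 0 → ginf w = g0 w⁻¹) ∧ ginf 0 = p ∧ range g0 = {p}ᶜ := by
  obtain ⟨h, H⟩ := exists_simplePole p hyp
  exact ⟨H.inv, H.invInf, H.contMDiff_inv, H.contMDiff_invInf, H.inv_injective,
    H.invInf_injective, H.injective_mfderiv_inv, H.injective_mfderiv_invInf,
    fun w hw => H.invInf_of_ne hw, H.invInf_zero, H.range_inv⟩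

end Vale.Agent.P267.H332
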